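import Vale.Agent.P111.QL.Main

/-! P111: quantitative lower bounds for the `K`-convexity constant below the line
`1/q + 1/r = 1/2`. -/

open Vale.Agent.P111 in
/-- Below the line `1/q + 1/r = 1/2` the `K`-convexity constant is not controlled by
any power `b < 1 / (2 (1/q + 1/r))` of the cotype constants of the space and of its dual. -/
theorem Vale.Agent.Results.P111.QuantLower.result :
    (∀ q r : ℝ, 2 ≤ q → 2 ≤ r → 1 / q + 1 / r < 1 / 2 → ∃ C : ℝ, 0 < C ∧ ∀ n : ℕ, 1 ≤ n →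
      ∃ (E : Type) (_ : NormedAddCommGroup E) (_ : NormedSpace ℝ E),
        FiniteDimensional ℝ E ∧ Module.finrank ℝ E = 2 ^ n ∧
        CotypeWith q (C * (n : ℝ) ^ (1 / q)) E ∧
        CotypeWith r (C * (n : ℝ) ^ (1 / r)) (E →L[ℝ] ℝ) ∧
        ∀ K : ℝ, KConvexWith K E → √n ≤ C * K) ∧
    (∀ q r : ℝ, 2 ≤ q → 2 ≤ r → 1 / q + 1 / r < 1 / 2 →
      ∀ A b : ℝ, b * (1 / q + 1 / r) < 1 / 2 →
      ∃ (E : Type) (_ : NormedAddCommGroup E) (_ : NormedSpace ℝ E) (c d : ℝ),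
        FiniteDimensional ℝ E ∧ 1 ≤ c ∧ 1 ≤ d ∧ CotypeWith q c E ∧
        CotypeWith r d (E →L[ℝ] ℝ) ∧ ∀ K : ℝ, KConvexWith K E → A * (c * d) ^ b < K) ∧
    (∃ C : ℝ, 0 < C ∧ ∀ q : ℝ, 5 ≤ q →
      ∃ (E : Type) (_ : NormedAddCommGroup E) (_ : NormedSpace ℝ E),
        FiniteDimensional ℝ E ∧ CotypeWith q C E ∧ CotypeWith q C (E →L[ℝ] ℝ) ∧
        ∀ K : ℝ, KConvexWith K E → Real.exp (q / 2) ≤ C * K) :=
  ⟨QL.part1, QL.part2, QL.part3⟩
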